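import Vale.Agent.P240.R2.H296.StmtsB
import Vale.Agent.P240.R2.H296.Cen

/-!
**B3**: the elements `e W` of the orthogonal group (trivial star) modulo `{1, -1}` are products of
commutators, odd dimension.
-/

set_option autoImplicit false

namespace Vale.Agent.P240.R2.H221

open Matrix Vale.Agent.P240.R2.AS

universe u

section refl

variable {K : Type u} [Field K] [StarRing K] {n : ℕ}

/-- the reflection in `v` -/
noncomputable def rf (hs : ∀ x : K, star x = x) (v : Fin n → K) (hv : v ⬝ᵥ v ≠ 0) : GU K n :=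
  ⟨1 - (2 / (v ⬝ᵥ v)) • vecMulVec v v, by
    have h1 : star (1 - (2 / (v ⬝ᵥ v)) • vecMulVec v v) = 1 - (2 / (v ⬝ᵥ v)) • vecMulVec v v := by
      ext i j
      rw [star_apply, Matrix.sub_apply, Matrix.sub_apply, Matrix.smul_apply, Matrix.smul_apply, vecMulVec_apply,
        vecMulVec_apply, hs, smul_eq_mul, smul_eq_mul, mul_comm (v j), one_apply, one_apply]
      simp [eq_comm]
    rw [mem_unitaryGroup_iff, h1, sub_mul, mul_sub, mul_sub, one_mul, mul_one, one_mul,
      smul_mul_smul_comm, vecMulVec_mul_vecMulVec]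
    have h2 : (2 / (v ⬝ᵥ v) * (2 / (v ⬝ᵥ v))) • vecMulVec v ((v ⬝ᵥ v) • v) =
        (2 / (v ⬝ᵥ v)) • vecMulVec v v + (2 / (v ⬝ᵥ v)) • vecMulVec v v := by
      ext i j
      simp only [Matrix.smul_apply, Matrix.add_apply, vecMulVec_apply, Pi.smul_apply, smul_eq_mul]
      field_simp
      ring
    rw [h2]; abel⟩

lemma rf_mulVec (hs : ∀ x : K, star x = x) (v : Fin n → K) (hv : v ⬝ᵥ v ≠ 0) (x : Fin n → K) :
    (rf hs v hv : Matrix (Fin n) (Fin n) K) *ᵥ x = x - (2 * (v ⬝ᵥ x) / (v ⬝ᵥ v)) • v := by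
  show (1 - (2 / (v ⬝ᵥ v)) • vecMulVec v v) *ᵥ x = _
  rw [Matrix.sub_mulVec, one_mulVec, Matrix.smul_mulVec, vecMulVec_mulVec]
  congr 1
  ext i
  simp only [Pi.smul_apply, smul_eq_mul, MulOpposite.smul_eq_mul_unop, MulOpposite.unop_op]
  ring

/-- unit vectors are exchanged, up to sign, by a reflection -/
lemma exists_rf (hs : ∀ x : K, star x = x) (h2 : (2 : K) ≠ 0) {x y : Fin n → K}
    (hx : x ⬝ᵥ x = 1) (hy : y ⬝ᵥ y = 1) :
    ∃ g : GU K n, (g : Matrix (Fin n) (Fin n) K) *ᵥ x = y ∨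
      (g : Matrix (Fin n) (Fin n) K) *ᵥ x = -y := by
  have hc : y ⬝ᵥ x = x ⬝ᵥ y := dotProduct_comm _ _
  by_cases h : x ⬝ᵥ y = 1
  · have hv : (x + y) ⬝ᵥ (x + y) = 4 := by
      rw [add_dotProduct, dotProduct_add, dotProduct_add, hx, hy, hc, h]; norm_num
    have h4 : (x + y) ⬝ᵥ (x + y) ≠ 0 := by
      rw [hv]
      have : (4 : K) = 2 * 2 := by norm_num
      rw [this]; exact mul_ne_zero h2 h2
    refine ⟨rf hs (x + y) h4, Or.inr ?_⟩
    rw [rf_mulVec, hv, add_dotProduct, hx, hc, h]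
    have : (2 * (1 + 1) / 4 : K) = 1 := by
      have h40 : (4 : K) ≠ 0 := by rw [← hv]; exact h4
      field_simp; norm_num
    rw [this, one_smul]; abel
  · have hv : (x - y) ⬝ᵥ (x - y) = 2 * (1 - x ⬝ᵥ y) := by
      rw [sub_dotProduct, dotProduct_sub, dotProduct_sub, hx, hy, hc]; ring
    have h3 : (1 - x ⬝ᵥ y) ≠ 0 := fun h0 => h (sub_eq_zero.1 h0).symm
    have h4 : (x - y) ⬝ᵥ (x - y) ≠ 0 := by
      rw [hv]; exact mul_ne_zero h2 h3
    refine ⟨rf hs (x - y) h4, Or.inl ?_⟩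
    rw [rf_mulVec, hv, sub_dotProduct, hx, hc]
    have : (2 * (1 - x ⬝ᵥ y) / (2 * (1 - x ⬝ᵥ y)) : K) = 1 := div_self (mul_ne_zero h2 h3)
    rw [this, one_smul]; abel

/-- conjugation of `1 + (ζ - 1) P` -/
lemma conj_eU {ζ : K} {P Q : Matrix (Fin n) (Fin n) K} (g : GU K n)
    (hP : star P = P ∧ P * P = P ∧ ζ * star ζ = 1) (hQ : star Q = Q ∧ Q * Q = Q ∧ ζ * star ζ = 1)
    (h : (g : Matrix (Fin n) (Fin n) K) * P * star (g : Matrix (Fin n) (Fin n) K) = Q) :
    g * eU ζ P * g⁻¹ = eU ζ Q := by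
  apply Subtype.ext
  unfold eU
  rw [dif_pos hP, dif_pos hQ]
  show (g : Matrix (Fin n) (Fin n) K) * (1 + (ζ - 1) • P) * star (g : Matrix (Fin n) (Fin n) K) =
    1 + (ζ - 1) • Q
  rw [mul_add, add_mul, mul_one, mem_unitaryGroup_iff.1 g.2, mul_smul_comm, smul_mul_assoc, h]

lemma eU_mul {ζ : K} {P Q : Matrix (Fin n) (Fin n) K}
    (hP : star P = P ∧ P * P = P ∧ ζ * star ζ = 1) (hQ : star Q = Q ∧ Q * Q = Q ∧ ζ * star ζ = 1)
    (hS : star (P + Q) = P + Q ∧ (P + Q) * (P + Q) = P + Q ∧ ζ * star ζ = 1)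
    (h : P * Q = 0) : eU ζ (P + Q) = eU ζ P * eU ζ Q := by
  apply Subtype.ext
  unfold eU
  rw [dif_pos hP, dif_pos hQ, dif_pos hS]
  show 1 + (ζ - 1) • (P + Q) = (1 + (ζ - 1) • P) * (1 + (ζ - 1) • Q)
  rw [mul_add, mul_one, add_mul, one_mul, smul_mul_smul_comm, h, smul_zero, add_zero, smul_add]
  abel

/-- letters are self-adjoint idempotents -/
lemma ln_cond (P : Ln K n) : star P.1 = P.1 ∧ P.1 * P.1 = P.1 := by
  obtain ⟨x, hx, hP⟩ := P.2
  rw [hP]
  constructor
  · ext i j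
    rw [star_apply, vecMulVec_apply, vecMulVec_apply, Pi.star_apply, Pi.star_apply, star_mul,
      star_star]
  · rw [vecMulVec_mul_vecMulVec, hx, one_smul]

lemma sm_cons' (P : Ln K n) (w : List (Ln K n)) : sm (P :: w) = P.1 + sm w := by
  simp [sm]

lemma mul_sm {P : Ln K n} : ∀ {w : List (Ln K n)}, (∀ Q ∈ w, P.1 * Q.1 = 0) → P.1 * sm w = 0
  | [], _ => by simp [sm]
  | Q :: w, h => by
    rw [sm_cons', mul_add, h Q (by simp), mul_sm fun R hR => h R (by simp [hR]), add_zero]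

lemma orth_cond : ∀ {w : List (Ln K n)}, Orth w → star (sm w) = sm w ∧ sm w * sm w = sm w
  | [], _ => by simp [sm]
  | P :: w, h => by
    have h' := List.pairwise_cons.1 h
    obtain ⟨h1, h2⟩ := orth_cond (w := w) h'.2
    obtain ⟨h3, h4⟩ := ln_cond P
    have h5 : P.1 * sm w = 0 := mul_sm h'.1
    have h6 : sm w * P.1 = 0 := by
      have := congrArg star h5
      rwa [star_mul, h1, h3, star_zero] at this
    rw [sm_cons']
    refine ⟨by rw [star_add, h1, h3], ?_⟩
    rw [add_mul, mul_add, mul_add, h2, h4, h5, h6]; abel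

/-- the class in the abelianisation of the element of a letter does not depend on the letter -/
lemma of_eq (hs : ∀ x : K, star x = x) (h2 : (2 : K) ≠ 0) (P Q : Ln K n) :
    Abelianization.of (QuotientGroup.mk (eU (-1 : K) P.1) : PGU K n) =
      Abelianization.of (QuotientGroup.mk (eU (-1 : K) Q.1) : PGU K n) := by
  have hm : (-1 : K) * star (-1 : K) = 1 := by rw [star_neg, star_one]; ring
  have hst : ∀ v : Fin n → K, star v = v := fun v => funext fun i => hs _
  obtain ⟨x, hx, hP⟩ := P.2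
  obtain ⟨y, hy, hQ⟩ := Q.2
  rw [hst] at hx hy hP hQ
  obtain ⟨g, hg⟩ := exists_rf hs h2 hx hy
  have hgt : star (g : Matrix (Fin n) (Fin n) K) = (g : Matrix (Fin n) (Fin n) K)ᵀ := by
    ext i j
    rw [star_apply, transpose_apply, hs]
  have h1 : (g : Matrix (Fin n) (Fin n) K) * P.1 * star (g : Matrix (Fin n) (Fin n) K) = Q.1 := by
    rw [hP, mul_vecMulVec, vecMulVec_mul, hgt, vecMul_transpose, hQ]
    rcases hg with h | h
    · rw [h]
    · rw [h, neg_vecMulVec, vecMulVec_neg, neg_neg]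
  have h3 := conj_eU (ζ := (-1 : K)) g ⟨(ln_cond P).1, (ln_cond P).2, hm⟩
    ⟨(ln_cond Q).1, (ln_cond Q).2, hm⟩ h1
  rw [← h3]
  have h4 : (QuotientGroup.mk (g * eU (-1 : K) P.1 * g⁻¹) : PGU K n) =
    QuotientGroup.mk g * QuotientGroup.mk (eU (-1 : K) P.1) * (QuotientGroup.mk g)⁻¹ := rfl
  rw [h4, map_mul, map_mul, map_inv, mul_comm (Abelianization.of (QuotientGroup.mk g)),
    mul_assoc, mul_inv_cancel, mul_one]

lemma of_word (hs : ∀ x : K, star x = x) (h2 : (2 : K) ≠ 0) (P0 : Ln K n) :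
    ∀ w : List (Ln K n), Orth w → Abelianization.of (eW (-1 : K) w) =
      (Abelianization.of (QuotientGroup.mk (eU (-1 : K) P0.1) : PGU K n)) ^ w.length
  | [], _ => by
    have hm : (-1 : K) * star (-1 : K) = 1 := by rw [star_neg, star_one]; ring
    have : eU (-1 : K) (sm ([] : List (Ln K n))) = 1 := by
      apply Subtype.ext
      unfold eU
      rw [dif_pos ⟨by simp [sm], by simp [sm], hm⟩]
      show 1 + ((-1 : K) - 1) • sm ([] : List (Ln K n)) = 1
      simp [sm]
    show Abelianization.of (QuotientGroup.mk (eU (-1 : K) (sm ([] : List (Ln K n))))) = _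
    rw [this, List.length_nil, pow_zero]
    exact map_one (Abelianization.of.comp (QuotientGroup.mk' _))
  | P :: w, h => by
    have hm : (-1 : K) * star (-1 : K) = 1 := by rw [star_neg, star_one]; ring
    have h' := List.pairwise_cons.1 h
    have h3 := of_word hs h2 P0 w h'.2
    have h4 := orth_cond (w := w) h'.2
    have h5 := orth_cond h
    have h6 : eU (-1 : K) (sm (P :: w)) = eU (-1 : K) P.1 * eU (-1 : K) (sm w) := by
      rw [sm_cons'] at h5 ⊢
      exact eU_mul ⟨(ln_cond P).1, (ln_cond P).2, hm⟩ ⟨h4.1, h4.2, hm⟩ ⟨h5.1, h5.2, hm⟩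
        (mul_sm h'.1)
    have h7 : eW (-1 : K) (P :: w) =
        (QuotientGroup.mk (eU (-1 : K) P.1) : PGU K n) * eW (-1 : K) w := by
      show (QuotientGroup.mk (eU (-1 : K) (sm (P :: w))) : PGU K n) = _
      rw [h6]; rfl
    rw [h7, map_mul, h3, of_eq hs h2 P P0, List.length_cons, pow_succ']

/-- the letters of the standard frame -/
def st (i : Fin n) : Ln K n :=
  ⟨vecMulVec (Pi.single i 1) (star (Pi.single i 1)), Pi.single i 1, by
    simp [dotProduct, Pi.single_apply], rfl⟩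

lemma st_val (i : Fin n) : (st i : Ln K n).1 = Matrix.single i i 1 := by
  ext a b
  show vecMulVec (Pi.single i 1) (star (Pi.single i 1)) a b = _
  rw [vecMulVec_apply, Pi.star_apply, Pi.single_apply, Pi.single_apply, Matrix.single_apply]
  by_cases h1 : i = a
  · subst h1
    by_cases h2 : i = b
    · subst h2; simp
    · simp [h2, Ne.symm h2]
  · simp [h1, Ne.symm h1]

lemma orth_st : Orth ((List.finRange n).map (st (K := K))) := by
  unfold Orth
  rw [List.pairwise_map]
  refine (List.nodup_finRange n).imp ?_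
  intro i j hij
  rw [st_val, st_val, Matrix.single_mul_single_of_ne _ _ _ _ hij]

lemma sm_st : sm ((List.finRange n).map (st (K := K))) = 1 := by
  unfold sm
  rw [List.map_map]
  have : ((fun P : Ln K n => P.1) ∘ st) = fun i : Fin n => Matrix.single i i (1 : K) := by
    funext i; exact st_val i
  rw [this, ← List.ofFn_eq_map, List.sum_ofFn, Matrix.sum_single_one]

end refl

lemma odd_pow {G : Type*} [Group G] {a : G} {n : ℕ} (hn : Odd n) (h2 : a ^ 2 = 1)
    (h : a ^ n = 1) : a = 1 := by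
  obtain ⟨k, rfl⟩ := hn
  rw [pow_succ, pow_mul, h2, one_pow, one_mul] at h
  exact h

lemma two_ne {K : Type*} [Field K] [Fintype K] (h : Odd (Nat.card K)) : (2 : K) ≠ 0 := by
  intro h2
  have h3 : ringChar K ∣ 2 := (ringChar.spec K 2).1 (by exact_mod_cast h2)
  have h4 : ringChar K = 2 := by
    rcases (Nat.dvd_prime Nat.prime_two).1 h3 with h5 | h5
    · exact absurd h5 CharP.ringChar_ne_one
    · exact h5
  have h5 := FiniteField.even_card_iff_char_two.1 h4
  rw [Nat.card_eq_fintype_card, Nat.odd_iff] at h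
  omega

theorem stmtB3 : StmtB3.{u} := by
  intro K _ _ _ hs hodd n hn w hw
  have h2 : (2 : K) ≠ 0 := two_ne hodd
  have hm : (-1 : K) * star (-1 : K) = 1 := by rw [star_neg, star_one]; ring
  have hn1 : 0 < n := hn.pos
  let P0 : Ln K n := st ⟨0, hn1⟩
  set a := Abelianization.of (QuotientGroup.mk (eU (-1 : K) P0.1) : PGU K n) with ha
  have ha2 : a ^ 2 = 1 := by
    have h3 : eU (-1 : K) P0.1 * eU (-1 : K) P0.1 = 1 := by
      apply Subtype.ext
      unfold eU
      rw [dif_pos ⟨(ln_cond P0).1, (ln_cond P0).2, hm⟩]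
      show (1 + ((-1 : K) - 1) • P0.1) * (1 + ((-1 : K) - 1) • P0.1) = 1
      rw [mul_add, mul_one, add_mul, one_mul, smul_mul_smul_comm, (ln_cond P0).2]
      module
    rw [ha, pow_two, ← map_mul, ← QuotientGroup.mk_mul, h3]
    exact map_one (Abelianization.of.comp (QuotientGroup.mk' _))
  have han : a ^ n = 1 := by
    have h3 := of_word hs h2 P0 _ (orth_st (K := K) (n := n))
    rw [List.length_map, List.length_finRange, ← ha] at h3
    rw [← h3]
    have h4 : eW (-1 : K) ((List.finRange n).map (st (K := K))) = 1 := by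
      show (QuotientGroup.mk (eU (-1 : K) (sm ((List.finRange n).map (st (K := K))))) : PGU K n) = 1
      rw [sm_st, QuotientGroup.eq_one_iff, H296.mem_center_iff (ζ := (-1 : K)) _ hm]
      · refine ⟨-1, ?_⟩
        unfold eU
        rw [dif_pos ⟨star_one _, one_mul _, hm⟩]
        show (1 + ((-1 : K) - 1) • (1 : Matrix (Fin n) (Fin n) K)) = _
        module
      · intro h
        apply h2
        have : (2 : K) = 1 - (-1) := by ring
        rw [this, h, sub_self]
    rw [h4, map_one]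
  have ha1 : a = 1 := by
    exact odd_pow hn ha2 han
  have h5 := of_word hs h2 P0 w hw
  rw [← ha, ha1, one_pow] at h5
  rw [← Abelianization.ker_of]
  exact h5

end Vale.Agent.P240.R2.H221
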