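import Mathlib

/-! Identities between `3 × 3` matrices. -/

set_option autoImplicit false

namespace Vale.Agent.P240.R2.H221

open Matrix

variable {K : Type*} [Field K]

/-- the cyclic permutation matrix -/
abbrev mW : Matrix (Fin 3) (Fin 3) K := !![0, 1, 0; 0, 0, 1; 1, 0, 0]

/-- a diagonal matrix -/
abbrev mD (a b c : K) : Matrix (Fin 3) (Fin 3) K := !![a, 0, 0; 0, b, 0; 0, 0, c]

/-- the Fourier matrix -/
abbrev mF (ζ c : K) : Matrix (Fin 3) (Fin 3) K :=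
  !![c, c, c; c, c * ζ, c * ζ ^ 2; c, c * ζ ^ 2, c * ζ]

lemma mD_mul (a b c a' b' c' : K) : mD a b c * mD a' b' c' = mD (a * a') (b * b') (c * c') := by
  ext i j
  fin_cases i <;> fin_cases j <;> simp [Matrix.mul_apply, Fin.sum_univ_three]

lemma mD_one : mD (1 : K) 1 1 = 1 := by
  ext i j
  fin_cases i <;> fin_cases j <;> simp

lemma mD_mul_mW (a b c : K) : mD a b c * mW = !![0, a, 0; 0, 0, b; c, 0, 0] := by
  ext i j
  fin_cases i <;> fin_cases j <;> simp [Matrix.mul_apply, Fin.sum_univ_three]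

lemma mW_mul_mD (a b c : K) : mW * mD a b c = !![0, b, 0; 0, 0, c; a, 0, 0] := by
  ext i j
  fin_cases i <;> fin_cases j <;> simp [Matrix.mul_apply, Fin.sum_univ_three]

lemma id_WX {ζ : K} (h : ζ ^ 3 = 1) : mW * mD 1 ζ (ζ ^ 2) = ζ • (mD 1 ζ (ζ ^ 2) * mW) := by
  rw [mD_mul_mW, mW_mul_mD]
  ext i j
  fin_cases i <;> fin_cases j <;> simp
  · ring
  · rw [← h]; ring

lemma id_X3 {ζ : K} (h : ζ ^ 3 = 1) : mD 1 ζ (ζ ^ 2) ^ 3 = 1 := by
  have h2 : ζ * ζ * ζ = 1 := by rw [← h]; ring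
  have h4 : ζ ^ 2 * ζ ^ 2 * ζ ^ 2 = 1 := by
    have : ζ ^ 2 * ζ ^ 2 * ζ ^ 2 = (ζ ^ 3) ^ 2 := by ring
    rw [this, h, one_pow]
  rw [pow_succ, pow_two, mD_mul, mD_mul, h2, h4, one_mul, one_mul, mD_one]

lemma id_WF {ζ c : K} (h : ζ ^ 3 = 1) : mW * mF ζ c = mF ζ c * mD 1 ζ (ζ ^ 2) := by
  have e1 : c * ζ * ζ = c * ζ ^ 2 := by ring
  have e2 : c * ζ ^ 2 * ζ ^ 2 = c * ζ := by
    have : c * ζ ^ 2 * ζ ^ 2 = c * ζ * ζ ^ 3 := by ring
    rw [this, h, mul_one]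
  have e3 : c * ζ ^ 2 * ζ = c := by
    have : c * ζ ^ 2 * ζ = c * ζ ^ 3 := by ring
    rw [this, h, mul_one]
  have e4 : c * ζ * ζ ^ 2 = c := by
    have : c * ζ * ζ ^ 2 = c * ζ ^ 3 := by ring
    rw [this, h, mul_one]
  ext i j
  fin_cases i <;> fin_cases j <;> simp [Matrix.mul_apply, Fin.sum_univ_three, e1, e2, e3, e4]

lemma id_comm (a b c a' b' c' : K) : mD a b c * mD a' b' c' = mD a' b' c' * mD a b c := by
  rw [mD_mul, mD_mul, mul_comm a, mul_comm b, mul_comm c]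

lemma mul_three (a b c a' b' c' : K) :
    (!![0, a, 0; 0, 0, b; c, 0, 0] : Matrix (Fin 3) (Fin 3) K) * !![0, a', 0; 0, 0, b'; c', 0, 0] =
      !![0, 0, a * b'; b * c', 0, 0; 0, c * a', 0] := by
  ext i j
  fin_cases i <;> fin_cases j <;> simp [Matrix.mul_apply, Fin.sum_univ_three]

lemma conj_W (s t : K) : mD s t 1 * mW * mD t s 1 = !![0, s * s, 0; 0, 0, t; t, 0, 0] := by
  rw [mD_mul_mW]
  ext i j
  fin_cases i <;> fin_cases j <;> simp [Matrix.mul_apply, Fin.sum_univ_three]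

/-- `t w t⁻¹` and `w` commute modulo scalars only if `s ^ 3 = 1` -/
lemma id_fin {s t r : K} (hst : s * t = 1)
    (h : mW * (mD s t 1 * mW * mD t s 1) = r • (mD s t 1 * mW * mD t s 1 * mW)) : s ^ 3 = 1 := by
  rw [conj_W, mul_three, mul_three] at h
  have e1 := congrFun (congrFun h 0) 2
  have e2 := congrFun (congrFun h 1) 0
  simp at e1 e2
  have hs0 : t ≠ 0 := by
    intro h5; rw [h5, mul_zero] at hst; exact one_ne_zero hst.symm
  have hr1 : r = 1 := by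
    have : r * t = 1 * t := by rw [one_mul]; exact e2.symm
    exact mul_right_cancel₀ hs0 this
  rw [hr1, one_mul] at e1
  have : s ^ 3 = s * (s * s) := by ring
  rw [this, ← e1, hst]

lemma det_mD (a b c : K) : (mD a b c).det = a * b * c := by
  rw [det_fin_three]; simp

lemma det_mW : (mW : Matrix (Fin 3) (Fin 3) K).det = 1 := by
  rw [det_fin_three]; simp

end Vale.Agent.P240.R2.H221
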