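import Vale.Agent.P240.R2.H221.Els
import Vale.Agent.P240.R2.H221.Ids

/-!
**A4**: `PSU_3(q)`, `q ≥ 3`, `3 ∣ q + 1`, has the Quillen dimension property at `3`, over any field.
-/

set_option autoImplicit false

namespace Vale.Agent.P240.R2.H221

open Matrix Vale.Agent.P240 Vale.Agent.P240.K Vale.Agent.P240.R2.AS
open Vale.Agent.P240.R2.H275 (QuillenDim)

universe u

section cl

variable {K : Type u} [Field K] [StarRing K]

lemma mk_eq_iff {ζ : K} (h1 : ζ ≠ 1) (h2 : ζ * star ζ = 1) (a b : GU K 3) :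
    (QuotientGroup.mk a : PGU K 3) = QuotientGroup.mk b ↔
      ∃ c : K, (b : Matrix (Fin 3) (Fin 3) K) = c • (a : Matrix (Fin 3) (Fin 3) K) := by
  rw [QuotientGroup.eq, H296.mem_center_iff h1 h2]
  constructor
  · rintro ⟨c, hc⟩
    refine ⟨c, ?_⟩
    have h3 : b = a * (a⁻¹ * b) := by group
    have h4 := congrArg (fun g : GU K 3 => (g : Matrix (Fin 3) (Fin 3) K)) h3
    simp only [UnitaryGroup.mul_val] at h4 hc
    rw [h4, hc]; simp
  · rintro ⟨c, hc⟩
    refine ⟨c, ?_⟩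
    have h3 : a⁻¹ * a = 1 := inv_mul_cancel a
    have h4 := congrArg (fun g : GU K 3 => (g : Matrix (Fin 3) (Fin 3) K)) h3
    simp only [UnitaryGroup.mul_val, UnitaryGroup.one_val] at h4 ⊢
    rw [hc, Matrix.mul_smul, h4]

/-- the class of a matrix of determinant one -/
def cl (g : GU K 3) (h : (g : Matrix (Fin 3) (Fin 3) K).det = 1) : ↥(PSU K 3) :=
  ⟨QuotientGroup.mk g, ⟨g, h, rfl⟩⟩

lemma cl_mul_eq {ζ : K} (h1 : ζ ≠ 1) (h2 : ζ * star ζ = 1) {a b c d : GU K 3} {ha hb hc hd}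
    (r : K) (h : ((c : Matrix (Fin 3) (Fin 3) K) * (d : Matrix (Fin 3) (Fin 3) K)) =
      r • ((a : Matrix (Fin 3) (Fin 3) K) * (b : Matrix (Fin 3) (Fin 3) K))) :
    cl a ha * cl b hb = cl c hc * cl d hd := by
  apply Subtype.ext
  show (QuotientGroup.mk (a * b) : PGU K 3) = QuotientGroup.mk (c * d)
  rw [mk_eq_iff h1 h2]
  exact ⟨r, h⟩

end cl

/-- a nonzero cycle on the chains with two groups, every `q ≥ 3` with `3 ∣ q + 1` -/
theorem psu3_cycle {K : Type u} [Field K] [Fintype K] [StarRing K] {q : ℕ} (hq : 3 ≤ q)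
    (hK : Nat.card K = q ^ 2) (hs : ∀ x : K, star x = x ^ q) (h3 : 3 ∣ q + 1)
    (𝕜 : Type*) [Field 𝕜] :
    ∃ z : List (Ap 3 ↥(PSU K 3)) →₀ 𝕜, IsChain 2 z ∧ bd z = 0 ∧ z ≠ 0 := by
  obtain ⟨ζ, hz3, h1, h2⟩ := H296.exists_zeta hK hs Nat.prime_three h3
  have hsum : 1 + ζ + ζ ^ 2 = 0 := by
    have h4 : (ζ - 1) * (1 + ζ + ζ ^ 2) = 0 := by linear_combination hz3
    exact (mul_eq_zero.1 h4).resolve_left (sub_ne_zero.2 h1)
  have h30 : (3 : K) ≠ 0 := by
    intro h0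
    have h4 : (ζ - 1) ^ 3 = 0 := by
      linear_combination hz3 + (ζ - ζ ^ 2) * h0
    exact h1 (sub_eq_zero.1 (pow_eq_zero_iff (by norm_num) |>.1 h4))
  obtain ⟨c0, hc0⟩ := H472.exists_pow (K := K) (q := q) (by rw [← Nat.card_eq_fintype_card, hK])
    (inv_ne_zero h30) (by rw [← hs, star_inv₀, star_ofNat])
  have hc : 3 * (c0 * star c0) = 1 := by
    rw [hs, ← pow_succ', hc0, mul_inv_cancel₀ h30]
  obtain ⟨s, hs1, hs3⟩ := exists_s hq hK hs
  have hs1' : star s * star (star s) = 1 := by rw [star_star, mul_comm]; exact hs1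
  have h11 : (1 : K) * star (1 : K) = 1 := by rw [star_one, mul_one]
  have hz2 : ζ ^ 2 * star (ζ ^ 2) = 1 := by
    rw [star_pow, ← mul_pow, h2, one_pow]
  set F : GU K 3 := fo ζ c0 hc h2 hz3 hsum with hF
  have hF' : (F : Matrix (Fin 3) (Fin 3) K) = mF ζ c0 := rfl
  set d : K := (F : Matrix (Fin 3) (Fin 3) K).det with hd
  have hd1 : d * star d = 1 := by
    have h4 := mem_unitaryGroup_iff.1 F.2
    have h5 := congrArg Matrix.det h4
    rw [star_eq_conjTranspose, det_mul, det_conjTranspose, det_one] at h5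
    exact h5
  have hd1' : star d * star (star d) = 1 := by rw [star_star, mul_comm]; exact hd1
  set X : GU K 3 := dm 1 ζ (ζ ^ 2) h11 h2 hz2 with hX
  set T : GU K 3 := dm s (star s) 1 hs1 hs1' h11 with hT
  set T' : GU K 3 := dm (star s) s 1 hs1' hs1 h11 with hT'
  set D : GU K 3 := dm (star d) 1 1 hd1' h11 h11 with hD
  set C : GU K 3 := cy with hC
  have vX : (X : Matrix (Fin 3) (Fin 3) K) = mD 1 ζ (ζ ^ 2) := rfl
  have vT : (T : Matrix (Fin 3) (Fin 3) K) = mD s (star s) 1 := rfl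
  have vT' : (T' : Matrix (Fin 3) (Fin 3) K) = mD (star s) s 1 := rfl
  have vD : (D : Matrix (Fin 3) (Fin 3) K) = mD (star d) 1 1 := rfl
  have vC : (C : Matrix (Fin 3) (Fin 3) K) = mW := rfl
  have dX : (X : Matrix (Fin 3) (Fin 3) K).det = 1 := by
    rw [vX, det_mD, one_mul, ← pow_succ', hz3]
  have dC : (C : Matrix (Fin 3) (Fin 3) K).det = 1 := by rw [vC, det_mW]
  have dT : (T : Matrix (Fin 3) (Fin 3) K).det = 1 := by rw [vT, det_mD, hs1, one_mul]
  have dT' : (T' : Matrix (Fin 3) (Fin 3) K).det = 1 := by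
    rw [vT', det_mD, mul_comm (star s), hs1, one_mul]
  have dF : ((F * D : GU K 3) : Matrix (Fin 3) (Fin 3) K).det = 1 := by
    rw [UnitaryGroup.mul_val, det_mul, vD, det_mD, mul_one, mul_one]; exact hd1
  refine cycle_of_elements (cl X dX) (cl C dC) (cl (F * D) dF) (cl T dT) ?_ ?_ ?_ ?_ ?_
  · refine cl_mul_eq h1 h2 ζ ?_
    rw [vC, vX]
    exact id_WX hz3
  · have hX3 : X ^ 3 = 1 := by
      apply Subtype.ext
      show (X : Matrix (Fin 3) (Fin 3) K) ^ 3 = 1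
      rw [vX, id_X3 hz3]
    apply Subtype.ext
    show (QuotientGroup.mk (X ^ 3) : PGU K 3) = QuotientGroup.mk 1
    rw [hX3]
  · refine cl_mul_eq h1 h2 1 ?_
    rw [one_smul, UnitaryGroup.mul_val, ← Matrix.mul_assoc, vC, hF', id_WF hz3, Matrix.mul_assoc,
      Matrix.mul_assoc, vD, vX, id_comm]
  · refine cl_mul_eq h1 h2 1 ?_
    rw [one_smul, vX, vT, id_comm]
  · intro h0
    have hTi : (cl T dT)⁻¹ = cl T' dT' := by
      apply inv_eq_of_mul_eq_one_right
      apply Subtype.ext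
      show (QuotientGroup.mk (T * T') : PGU K 3) = QuotientGroup.mk 1
      congr 1
      apply Subtype.ext
      show (T : Matrix (Fin 3) (Fin 3) K) * (T' : Matrix (Fin 3) (Fin 3) K) = 1
      rw [vT, vT', mD_mul, hs1, mul_comm (star s), hs1, one_mul, mD_one]
    rw [hTi] at h0
    have h4 : (QuotientGroup.mk (T * C * T' * C) : PGU K 3) =
      QuotientGroup.mk (C * (T * C * T')) := congrArg Subtype.val h0
    obtain ⟨r, hr⟩ := (mk_eq_iff h1 h2 _ _).1 h4
    simp only [UnitaryGroup.mul_val, vT, vT', vC] at hr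
    exact hs3 (id_fin hs1 hr)

/-- **A4** without restriction: `PSU_3(q)` has the Quillen dimension property at `3` if `q ≥ 3` and
`3 ∣ q + 1`, over any field -/
theorem quillenDim_psu3 {K : Type u} [Field K] [Fintype K] [StarRing K] {q : ℕ} (hq : 3 ≤ q)
    (hK : Nat.card K = q ^ 2) (hs : ∀ x : K, star x = x ^ q) (h3 : 3 ∣ q + 1)
    (𝕜 : Type*) [Field 𝕜] : QuillenDim 𝕜 3 ↥(PSU K 3) := by
  refine ⟨2, fun E => ?_, psu3_cycle hq hK hs h3 𝕜⟩
  haveI : Fact (Nat.Prime 3) := ⟨Nat.prime_three⟩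
  have h4 := H296.stmtM4 K q (by omega) hK hs 3 h3 3 (by norm_num) (Or.inl (by norm_num))
    (E.1.map (PSU K 3).subtype) ?_ ?_
  · rw [← Nat.card_congr (E.1.equivMapOfInjective _ (PSU K 3).subtype_injective).toEquiv] at h4
    exact h4
  · rintro _ ⟨x, hx, rfl⟩ _ ⟨y, hy, rfl⟩
    rw [← map_mul, ← map_mul, E.2.2.1 x hx y hy]
  · rintro _ ⟨x, hx, rfl⟩
    rw [← map_pow, E.2.2.2 x hx, map_one]

theorem stmtA4 : StmtA4.{u} := by
  intro K _ _ _ q hq hK hs h3 _
  exact quillenDim_psu3 hq hK hs h3 ℚ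

end Vale.Agent.P240.R2.H221
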