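import Vale.Agent.P240.R2.H221.Mat
import Vale.Agent.P240.R2.H472.Nrm

/-!
Elements of `GU_3(q)`, `3 ∣ q + 1`.
-/

set_option autoImplicit false

namespace Vale.Agent.P240.R2.H221

open Matrix Vale.Agent.P240 Vale.Agent.P240.K Vale.Agent.P240.R2.AS
open Vale.Agent.P240.R2.H275 (QuillenDim)

universe u

/-- an element of norm one whose cube is not one -/
theorem exists_s {K : Type*} [Field K] [Finite K] [StarRing K] {q : ℕ} (hq : 3 ≤ q)
    (hK : Nat.card K = q ^ 2) (hs : ∀ x : K, star x = x ^ q) :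
    ∃ s : K, s * star s = 1 ∧ s ^ 3 ≠ 1 := by
  obtain ⟨g, hg⟩ := IsCyclic.exists_generator (α := Kˣ)
  have hc : Nat.card Kˣ = (q + 1) * (q - 1) := by
    rw [Nat.card_units, hK, ← Nat.sq_sub_sq, one_pow]
  have ho : orderOf g = (q + 1) * (q - 1) := by
    rw [orderOf_eq_card_of_forall_mem_zpowers hg, hc]
  refine ⟨((g ^ (q - 1) : Kˣ) : K), ?_, fun h => ?_⟩
  · rw [hs, ← pow_succ', ← Units.val_pow_eq_pow_val, ← pow_mul, mul_comm, ← ho, pow_orderOf_eq_one,
      Units.val_one]
  · have h1 : (g ^ (q - 1)) ^ 3 = 1 := by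
      apply Units.ext
      rw [Units.val_pow_eq_pow_val, h, Units.val_one]
    rw [← pow_mul] at h1
    have h2 := orderOf_dvd_of_pow_eq_one h1
    rw [ho, mul_comm (q + 1)] at h2
    have h3 : q + 1 ∣ 3 := Nat.dvd_of_mul_dvd_mul_left (by omega) h2
    have := Nat.le_of_dvd (by norm_num) h3
    omega

section mats

variable {K : Type u} [Field K] [StarRing K]

/-- diagonal matrix -/
def dm (a b c : K) (ha : a * star a = 1) (hb : b * star b = 1) (hc : c * star c = 1) : GU K 3 :=
  ⟨!![a, 0, 0; 0, b, 0; 0, 0, c], by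
    rw [mem_unitaryGroup_iff, star_eq_conjTranspose]
    ext i j
    fin_cases i <;> fin_cases j <;>
      simp [Matrix.mul_apply, Fin.sum_univ_three, Matrix.conjTranspose_apply, ha, hb, hc]⟩

/-- the cyclic permutation -/
def cy : GU K 3 :=
  ⟨!![0, 1, 0; 0, 0, 1; 1, 0, 0], by
    rw [mem_unitaryGroup_iff, star_eq_conjTranspose]
    ext i j
    fin_cases i <;> fin_cases j <;>
      simp [Matrix.mul_apply, Fin.sum_univ_three, Matrix.conjTranspose_apply]⟩

/-- the Fourier matrix -/
def fo (ζ c : K) (hc : 3 * (c * star c) = 1) (hz : ζ * star ζ = 1) (hz3 : ζ ^ 3 = 1)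
    (h3 : 1 + ζ + ζ ^ 2 = 0) : GU K 3 :=
  ⟨!![c, c, c; c, c * ζ, c * ζ ^ 2; c, c * ζ ^ 2, c * ζ], by
    have hst : star ζ = ζ ^ 2 := by
      have : ζ ≠ 0 := by rintro rfl; simp at hz
      apply mul_left_cancel₀ this
      rw [hz, ← pow_succ', hz3]
    rw [mem_unitaryGroup_iff, star_eq_conjTranspose]
    ext i j
    fin_cases i <;> fin_cases j <;>
      simp [Matrix.mul_apply, Fin.sum_univ_three, Matrix.conjTranspose_apply, hst]
    · linear_combination hc
    · linear_combination (c * star c) * h3 + (c * star c) * ζ * hz3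
    · linear_combination (c * star c) * h3 + (c * star c) * ζ * hz3
    · linear_combination (c * star c) * h3
    · linear_combination hc + 2 * (c * star c) * hz3 + (c * star c) * (ζ^3) * hz3
    · linear_combination (c * star c) * h3 + (c * star c) * ζ * hz3 + (c * star c) * ζ ^ 2 * hz3
    · linear_combination (c * star c) * h3
    · linear_combination (c * star c) * h3 + (c * star c) * ζ * hz3 + (c * star c) * ζ ^ 2 * hz3
    · linear_combination hc + 2 * (c * star c) * hz3 + (c * star c) * (ζ^3) * hz3⟩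

end mats

end Vale.Agent.P240.R2.H221
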