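import Vale.Agent.P240.K.Defs

/-!
A finite bipartite order relation in which all degrees are at least `2` carries a nonzero 1-cycle.
-/

set_option autoImplicit false

namespace Vale.Agent.P240.R2.H221

open Finset Vale.Agent.P240.K

variable {𝕜 : Type*} [Field 𝕜] {α : Type*}

/-- the chain of an edge -/
lemma bd_pair (a b : α) : bd (𝕜 := 𝕜) (Finsupp.single [a, b] 1) =
    Finsupp.single [b] 1 - Finsupp.single [a] 1 := by
  unfold bd
  rw [Finsupp.linearCombination_single, one_smul]
  simp [Finset.sum_range_succ, sub_eq_add_neg]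

open scoped Classical in
/-- **a graph with all degrees at least `2` has a nonzero cycle** -/
theorem exists_cycle [Preorder α] (X Y : Finset α) (hX : X.Nonempty)
    (h1 : ∀ a ∈ X, 2 ≤ (Y.filter (fun b => a < b)).card)
    (h2 : ∀ b ∈ Y, 2 ≤ (X.filter (fun a => a < b)).card) :
    ∃ z : List α →₀ 𝕜, IsChain 2 z ∧ bd z = 0 ∧ z ≠ 0 := by
  set E : Finset (α × α) := (X ×ˢ Y).filter (fun e => e.1 < e.2) with hE
  have hmem : ∀ e : α × α, e ∈ E ↔ (e.1 ∈ X ∧ e.2 ∈ Y) ∧ e.1 < e.2 := by
    intro e; rw [hE, Finset.mem_filter, Finset.mem_product]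
  -- counting
  have hc1 : 2 * X.card ≤ E.card := by
    have : E.card = ∑ a ∈ X, (Y.filter (fun b => a < b)).card := by
      rw [hE, Finset.card_filter, Finset.sum_product]
      exact Finset.sum_congr rfl fun a _ => (Finset.card_filter _ _).symm
    rw [this, mul_comm, ← smul_eq_mul]
    exact Finset.card_nsmul_le_sum _ _ _ h1
  have hc2 : 2 * Y.card ≤ E.card := by
    have : E.card = ∑ b ∈ Y, (X.filter (fun a => a < b)).card := by
      rw [hE, Finset.card_filter, Finset.sum_product_right]
      exact Finset.sum_congr rfl fun a _ => (Finset.card_filter _ _).symm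
    rw [this, mul_comm, ← smul_eq_mul]
    exact Finset.card_nsmul_le_sum _ _ _ h2
  obtain ⟨v0, hv0⟩ := hX
  set W : Finset α := X ∪ Y with hW
  have hv0W : v0 ∈ W := Finset.mem_union_left _ hv0
  have hWc : (W.erase v0).card < E.card := by
    rw [Finset.card_erase_of_mem hv0W]
    have h3 := Finset.card_union_le X Y
    have h4 : 0 < W.card := Finset.card_pos.2 ⟨v0, hv0W⟩
    rw [← hW] at h3
    omega
  -- the boundary map
  let D : (E → 𝕜) →ₗ[𝕜] (α →₀ 𝕜) :=
    { toFun := fun c => ∑ e : E, c e • (Finsupp.single e.1.2 1 - Finsupp.single e.1.1 1)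
      map_add' := by
        intro c d
        simp only [Pi.add_apply, add_smul, Finset.sum_add_distrib]
      map_smul' := by
        intro r c
        simp only [Pi.smul_apply, smul_eq_mul, mul_smul, Finset.smul_sum, RingHom.id_apply] }
  let R : (E → 𝕜) →ₗ[𝕜] (↥(W.erase v0) → 𝕜) :=
    { toFun := fun c v => D c v.1
      map_add' := by
        intro c d; funext v; simp only [map_add, Finsupp.add_apply, Pi.add_apply]
      map_smul' := by
        intro r c; funext v
        simp only [map_smul, Finsupp.smul_apply, Pi.smul_apply, RingHom.id_apply] }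
  have hker : LinearMap.ker R ≠ ⊥ := by
    apply LinearMap.ker_ne_bot_of_finrank_lt
    rw [Module.finrank_fintype_fun_eq_card, Module.finrank_fintype_fun_eq_card,
      Fintype.card_coe, Fintype.card_coe]
    exact hWc
  obtain ⟨c, hcR, hc0⟩ := (Submodule.ne_bot_iff _).1 hker
  have hDc : D c = 0 := by
    have hout : ∀ v, v ∉ W → D c v = 0 := by
      intro v hv
      show (∑ e : E, c e • (Finsupp.single e.1.2 (1 : 𝕜) - Finsupp.single e.1.1 1) : α →₀ 𝕜) v = 0
      rw [Finsupp.finsetSum_apply]
      refine Finset.sum_eq_zero fun e _ => ?_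
      obtain ⟨⟨h3, h4⟩, _⟩ := (hmem e.1).1 e.2
      have h5 : e.1.2 ≠ v := fun h => hv (h ▸ Finset.mem_union_right _ h4)
      have h6 : e.1.1 ≠ v := fun h => hv (h ▸ Finset.mem_union_left _ h3)
      simp [Finsupp.single_apply, h5, h6]
    have hin : ∀ v ∈ W.erase v0, D c v = 0 := by
      intro v hv
      have := congrFun (LinearMap.mem_ker.1 hcR) ⟨v, hv⟩
      exact this
    have hsum : (Finsupp.linearCombination 𝕜 (fun _ : α => (1 : 𝕜))) (D c) = 0 := by
      show (Finsupp.linearCombination 𝕜 (fun _ : α => (1 : 𝕜)))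
        (∑ e : E, c e • (Finsupp.single e.1.2 (1 : 𝕜) - Finsupp.single e.1.1 1)) = 0
      rw [map_sum]
      refine Finset.sum_eq_zero fun e _ => ?_
      rw [map_smul, map_sub, Finsupp.linearCombination_single, Finsupp.linearCombination_single,
        sub_self, smul_zero]
    have hsup : ∀ v, v ≠ v0 → D c v = 0 := by
      intro v hv
      by_cases h : v ∈ W
      · exact hin v (Finset.mem_erase.2 ⟨hv, h⟩)
      · exact hout v h
    have hD : D c = Finsupp.single v0 (D c v0) := by
      ext v
      by_cases hv : v = v0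
      · subst hv; simp
      · rw [hsup v hv, Finsupp.single_apply, if_neg (Ne.symm hv)]
    rw [hD, Finsupp.linearCombination_single, smul_eq_mul, mul_one] at hsum
    rw [hD, hsum, Finsupp.single_zero]
  -- the chain
  let z : List α →₀ 𝕜 := ∑ e : E, c e • Finsupp.single [e.1.1, e.1.2] (1 : 𝕜)
  refine ⟨z, ?_, ?_, ?_⟩
  · intro l hl
    obtain ⟨e, _, he⟩ := Finset.mem_biUnion.1 (Finsupp.support_finsetSum hl)
    have h3 := Finsupp.support_smul he
    have h4 := Finsupp.support_single_subset h3
    rw [Finset.mem_singleton] at h4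
    subst h4
    obtain ⟨_, h5⟩ := (hmem e.1).1 e.2
    refine ⟨rfl, ?_⟩
    simp [h5]
  · show bd (∑ e : E, c e • Finsupp.single [e.1.1, e.1.2] (1 : 𝕜)) = 0
    rw [map_sum]
    have h3 : ∀ e : E, bd (c e • Finsupp.single [e.1.1, e.1.2] (1 : 𝕜)) =
        Finsupp.lmapDomain 𝕜 𝕜 (fun v : α => [v])
          (c e • (Finsupp.single e.1.2 1 - Finsupp.single e.1.1 1)) := by
      intro e
      rw [map_smul, map_smul, bd_pair, map_sub, Finsupp.lmapDomain_apply, Finsupp.lmapDomain_apply,
        Finsupp.mapDomain_single, Finsupp.mapDomain_single]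
    rw [Finset.sum_congr rfl fun e _ => h3 e, ← map_sum]
    have h4 : (∑ e : E, c e • (Finsupp.single e.1.2 (1 : 𝕜) - Finsupp.single e.1.1 1)) = 0 := hDc
    rw [h4, map_zero]
  · intro hz
    apply hc0
    funext e
    have h3 := congrArg (fun f : List α →₀ 𝕜 => f [e.1.1, e.1.2]) hz
    simp only [Finsupp.coe_zero, Pi.zero_apply] at h3
    change (∑ e' : E, c e' • Finsupp.single [e'.1.1, e'.1.2] (1 : 𝕜) : List α →₀ 𝕜) [e.1.1, e.1.2] = 0 at h3
    rw [Finsupp.finsetSum_apply, Finset.sum_eq_single e] at h3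
    · simpa using h3
    · intro e' _ hne
      rw [Finsupp.smul_apply, Finsupp.single_apply, if_neg, smul_zero]
      intro h
      apply hne
      simp only [List.cons.injEq, and_true] at h
      exact Subtype.ext (Prod.ext h.1 h.2)
    · intro h; exact absurd (Finset.mem_univ e) h

end Vale.Agent.P240.R2.H221
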