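import Vale.Agent.P240.R2.H221.Graph

/-!
The cycle given by the conjugates of two elementary abelian subgroups `A < P`.
-/

set_option autoImplicit false

namespace Vale.Agent.P240.R2.H221

open Finset Vale.Agent.P240 Vale.Agent.P240.K

variable {H : Type*} [Group H] {p : ℕ}

/-- the conjugate of a subgroup -/
def cj (g : H) (E : Subgroup H) : Subgroup H := E.map (MulAut.conj g).toMonoidHom

lemma mem_cj {g x : H} {E : Subgroup H} : x ∈ cj g E ↔ g⁻¹ * x * g ∈ E := by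
  unfold cj
  rw [Subgroup.mem_map]
  constructor
  · rintro ⟨y, hy, rfl⟩
    have : g⁻¹ * (g * y * g⁻¹) * g = y := by group
    simpa [MulAut.conj_apply, this] using hy
  · intro h
    exact ⟨g⁻¹ * x * g, h, by simp [MulAut.conj_apply, mul_assoc]⟩

lemma cj_mul (g h : H) (E : Subgroup H) : cj (g * h) E = cj g (cj h E) := by
  ext x
  rw [mem_cj, mem_cj, mem_cj]
  simp [mul_assoc]

lemma cj_one (E : Subgroup H) : cj 1 E = E := by
  ext x; rw [mem_cj]; simp

lemma cj_mono (g : H) {E F : Subgroup H} (h : E ≤ F) : cj g E ≤ cj g F := by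
  intro x hx
  rw [mem_cj] at hx ⊢
  exact h hx

lemma cj_inj (g : H) {E F : Subgroup H} (h : cj g E = cj g F) : E = F := by
  rw [← cj_one E, ← cj_one F, ← inv_mul_cancel g, cj_mul, cj_mul, h]

lemma cj_prop (g : H) (E : Ap p H) : cj g E.1 ≠ ⊥ ∧
    (∀ x ∈ cj g E.1, ∀ y ∈ cj g E.1, x * y = y * x) ∧ ∀ x ∈ cj g E.1, x ^ p = 1 := by
  obtain ⟨h1, h2, h3⟩ := E.2
  refine ⟨fun h => h1 ?_, ?_, ?_⟩
  · apply cj_inj g
    rw [h]
    refine le_antisymm bot_le ?_
    intro x hx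
    rw [mem_cj, Subgroup.mem_bot] at hx
    rw [Subgroup.mem_bot]
    have : x = g * (g⁻¹ * x * g) * g⁻¹ := by group
    rw [this, hx]; group
  · intro x hx y hy
    rw [mem_cj] at hx hy
    have h := h2 _ hx _ hy
    have e1 : x * y = g * ((g⁻¹ * x * g) * (g⁻¹ * y * g)) * g⁻¹ := by group
    have e2 : y * x = g * ((g⁻¹ * y * g) * (g⁻¹ * x * g)) * g⁻¹ := by group
    rw [e1, e2, h]
  · intro x hx
    rw [mem_cj] at hx
    have h := h3 _ hx
    have e1 : x = g * (g⁻¹ * x * g) * g⁻¹ := by group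
    rw [e1, ← MulAut.conj_apply, ← map_pow, h, map_one]

/-- the conjugate of an elementary abelian subgroup -/
def cA (g : H) (E : Ap p H) : Ap p H := ⟨cj g E.1, cj_prop g E⟩

lemma cA_lt (g : H) {E F : Ap p H} (h : E < F) : cA g E < cA g F := by
  rw [lt_iff_le_and_ne] at h ⊢
  refine ⟨cj_mono g h.1, fun h' => h.2 ?_⟩
  exact Subtype.ext (cj_inj g (congrArg Subtype.val h'))

lemma cA_inj (g : H) {E F : Ap p H} (h : cA g E = cA g F) : E = F :=
  Subtype.ext (cj_inj g (congrArg Subtype.val h))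

lemma cA_mul (g h : H) (E : Ap p H) : cA (g * h) E = cA g (cA h E) :=
  Subtype.ext (cj_mul g h E.1)

lemma cA_one (E : Ap p H) : cA 1 E = E := Subtype.ext (cj_one E.1)

/-- **the cycle**: `A < P`, some conjugate of `A` other than `A` lies below `P`, some conjugate of `P`
other than `P` lies above `A` -/
theorem cycle_of_conj {𝕜 : Type*} [Field 𝕜] [Finite H] {A P : Ap p H} (hAP : A < P) {h g : H}
    (h1 : cA h A < P) (h2 : cA h A ≠ A) (h3 : A < cA g P) (h4 : cA g P ≠ P) :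
    ∃ z : List (Ap p H) →₀ 𝕜, IsChain 2 z ∧ bd z = 0 ∧ z ≠ 0 := by
  classical
  haveI := Fintype.ofFinite H
  refine exists_cycle (Finset.univ.image fun k => cA k A) (Finset.univ.image fun k => cA k P)
    ⟨A, Finset.mem_image.2 ⟨1, Finset.mem_univ _, cA_one A⟩⟩ ?_ ?_
  · intro a ha
    obtain ⟨k, _, rfl⟩ := Finset.mem_image.1 ha
    refine Finset.one_lt_card.2 ⟨cA k P, ?_, cA k (cA g P), ?_, ?_⟩
    · exact Finset.mem_filter.2 ⟨Finset.mem_image.2 ⟨k, Finset.mem_univ _, rfl⟩, cA_lt k hAP⟩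
    · exact Finset.mem_filter.2 ⟨Finset.mem_image.2 ⟨k * g, Finset.mem_univ _, cA_mul k g P⟩,
        cA_lt k h3⟩
    · intro h; exact h4 (cA_inj k h).symm
  · intro b hb
    obtain ⟨k, _, rfl⟩ := Finset.mem_image.1 hb
    refine Finset.one_lt_card.2 ⟨cA k A, ?_, cA k (cA h A), ?_, ?_⟩
    · exact Finset.mem_filter.2 ⟨Finset.mem_image.2 ⟨k, Finset.mem_univ _, rfl⟩, cA_lt k hAP⟩
    · exact Finset.mem_filter.2 ⟨Finset.mem_image.2 ⟨k * h, Finset.mem_univ _, cA_mul k h A⟩,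
        cA_lt k h1⟩
    · intro h; exact h2 (cA_inj k h).symm

end Vale.Agent.P240.R2.H221
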