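import Vale.Agent.P240.R2.AS.Stmts2
import Vale.Agent.P240.R2.H296.Cen
import Vale.Agent.P240.R2.H221.Orb

/-!
The elements of `PSU_3(q)`, `3 ∣ q + 1`.
-/

set_option autoImplicit false

namespace Vale.Agent.P240.R2.H221

open Matrix Vale.Agent.P240 Vale.Agent.P240.K Vale.Agent.P240.R2.AS

section group

variable {H : Type*} [Group H]

/-- the subgroup generated by two commuting elements of order `3` -/
def two (x w : H) (hc : x * w = w * x) (hx : x ^ 3 = 1) (hw : w ^ 3 = 1) : Subgroup H where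
  carrier := {y | ∃ i j : ℕ, y = x ^ i * w ^ j}
  one_mem' := ⟨0, 0, by simp⟩
  mul_mem' := by
    rintro a b ⟨i, j, rfl⟩ ⟨k, l, rfl⟩
    refine ⟨i + k, j + l, ?_⟩
    have h : Commute x w := hc
    have h2 : w ^ j * x ^ k = x ^ k * w ^ j := (h.pow_pow k j).symm.eq
    rw [pow_add, pow_add]
    calc x ^ i * w ^ j * (x ^ k * w ^ l) = x ^ i * (w ^ j * x ^ k) * w ^ l := by simp [mul_assoc]
      _ = _ := by rw [h2]; simp [mul_assoc]
  inv_mem' := by
    rintro a ⟨i, j, rfl⟩
    refine ⟨2 * i, 2 * j, ?_⟩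
    rw [inv_eq_iff_mul_eq_one]
    have h : Commute x w := hc
    have h2 : w ^ j * x ^ (2 * i) = x ^ (2 * i) * w ^ j := (h.pow_pow (2 * i) j).symm.eq
    calc x ^ i * w ^ j * (x ^ (2 * i) * w ^ (2 * j))
        = x ^ i * (w ^ j * x ^ (2 * i)) * w ^ (2 * j) := by simp [mul_assoc]
      _ = (x ^ i * x ^ (2 * i)) * (w ^ j * w ^ (2 * j)) := by rw [h2]; simp [mul_assoc]
      _ = (x ^ 3) ^ i * (w ^ 3) ^ j := by
          rw [← pow_add, ← pow_add, ← pow_mul, ← pow_mul]; congr 2 <;> ring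
      _ = 1 := by rw [hx, hw]; simp

variable {x w : H} {hc : x * w = w * x} {hx : x ^ 3 = 1} {hw : w ^ 3 = 1}

lemma mem_two {y : H} : y ∈ two x w hc hx hw ↔ ∃ i j : ℕ, y = x ^ i * w ^ j := Iff.rfl

lemma two_comm {a b : H} (ha : a ∈ two x w hc hx hw) (hb : b ∈ two x w hc hx hw) :
    a * b = b * a := by
  obtain ⟨i, j, rfl⟩ := mem_two.1 ha
  obtain ⟨k, l, rfl⟩ := mem_two.1 hb
  have h : Commute x w := hc
  have h1 : Commute (x ^ i * w ^ j) (x ^ k * w ^ l) :=
    ((Commute.pow_pow (Commute.refl x) i k).mul_right (h.pow_pow i l)).mul_left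
      ((h.symm.pow_pow j k).mul_right (Commute.pow_pow (Commute.refl w) j l))
  exact h1.eq

lemma two_pow {a : H} (ha : a ∈ two x w hc hx hw) : a ^ 3 = 1 := by
  obtain ⟨i, j, rfl⟩ := mem_two.1 ha
  have h : Commute x w := hc
  rw [(h.pow_pow i j).mul_pow, ← pow_mul, ← pow_mul, mul_comm i, mul_comm j, pow_mul, pow_mul, hx,
    hw]
  simp

/-- the lemma on cycles in terms of elements: `x` has order `3` and commutes with its conjugate `w`;
`t` commutes with `x` and `t w t⁻¹` does not commute with `w` -/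
theorem cycle_of_elements {𝕜 : Type*} [Field 𝕜] [Finite H] (x w h t : H) (hc : x * w = w * x)
    (hx : x ^ 3 = 1) (hh : h * x = w * h) (ht : t * x = x * t)
    (htw : (t * w * t⁻¹) * w ≠ w * (t * w * t⁻¹)) :
    ∃ z : List (Ap 3 H) →₀ 𝕜, IsChain 2 z ∧ bd z = 0 ∧ z ≠ 0 := by
  replace hh : h * x * h⁻¹ = w := by rw [hh]; group
  replace ht : t * x * t⁻¹ = x := by rw [ht]; group
  have hxw : w ∉ Subgroup.zpowers x := by
    intro h0
    obtain ⟨k, hk⟩ := Subgroup.mem_zpowers_iff.1 h0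
    apply htw
    have h1 : t * w * t⁻¹ = w := by
      rw [← hk, ← conj_zpow, ht]
    rw [h1]
  have hx1 : x ≠ 1 := by
    rintro rfl
    apply hxw
    rw [← hh]; simp
  have hw : w ^ 3 = 1 := by
    rw [← hh, conj_pow, hx]; simp
  have hxP : x ∈ two x w hc hx hw := ⟨1, 0, by simp⟩
  have hwP : w ∈ two x w hc hx hw := ⟨0, 1, by simp⟩
  have hAP : Subgroup.zpowers x ≤ two x w hc hx hw := Subgroup.zpowers_le.2 hxP
  let P : Ap 3 H := ⟨two x w hc hx hw, by
    refine ⟨fun h0 => hx1 ?_, fun a ha b hb => two_comm ha hb, fun a ha => two_pow ha⟩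
    rw [h0] at hxP
    exact Subgroup.mem_bot.1 hxP⟩
  let A : Ap 3 H := ⟨Subgroup.zpowers x, by
    refine ⟨fun h0 => hx1 (Subgroup.zpowers_eq_bot.1 h0), fun a ha b hb =>
      two_comm (hAP ha) (hAP hb), fun a ha => two_pow (hAP ha)⟩⟩
  have hlt : A < P := by
    refine lt_of_le_of_ne hAP fun h0 => hxw ?_
    have h1 : Subgroup.zpowers x = two x w hc hx hw := congrArg Subtype.val h0
    rw [h1]; exact hwP
  have hcard : ∀ k l : H, cA k A ≠ cA l P := by
    intro k l h0
    have h1 : cA (l⁻¹ * k) A = P := by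
      rw [cA_mul, h0, ← cA_mul, inv_mul_cancel, cA_one]
    have h2 : cj (l⁻¹ * k) A.1 = P.1 := congrArg Subtype.val h1
    have h3 : Nat.card (cj (l⁻¹ * k) A.1) = Nat.card A.1 :=
      (Nat.card_congr (A.1.equivMapOfInjective _ (MulAut.conj (l⁻¹ * k)).injective).toEquiv).symm
    have h4 : A.1 = P.1 := Subgroup.eq_of_le_of_card_ge hlt.le (by rw [← h3, h2])
    exact hlt.ne (Subtype.ext h4)
  have hwA : w ∈ (cA h A).1 := by
    show w ∈ cj h A.1
    rw [mem_cj, ← hh]
    have : h⁻¹ * (h * x * h⁻¹) * h = x := by group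
    rw [this]
    exact Subgroup.mem_zpowers x
  refine cycle_of_conj (A := A) (P := P) hlt (h := h) (g := t) ?_ ?_ ?_ ?_
  · refine lt_of_le_of_ne ?_ (by simpa [cA_one] using hcard h 1)
    show cj h (Subgroup.zpowers x) ≤ two x w hc hx hw
    unfold cj
    rw [MonoidHom.map_zpowers, Subgroup.zpowers_le]
    show h * x * h⁻¹ ∈ _
    rw [hh]; exact hwP
  · intro h0
    rw [h0] at hwA
    exact hxw hwA
  · refine lt_of_le_of_ne ?_ (by simpa [cA_one] using hcard 1 t)
    show Subgroup.zpowers x ≤ cj t (two x w hc hx hw)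
    rw [Subgroup.zpowers_le, mem_cj]
    have : t⁻¹ * x * t = x := by
      conv_lhs => rw [← ht]
      group
    rw [this]; exact hxP
  · intro h0
    have h1 : cj t (two x w hc hx hw) = two x w hc hx hw := congrArg Subtype.val h0
    apply htw
    apply two_comm (hc := hc) (hx := hx) (hw := hw) _ hwP
    rw [← h1, mem_cj]
    have : t⁻¹ * (t * w * t⁻¹) * t = w := by group
    rw [this]; exact hwP

end group

end Vale.Agent.P240.R2.H221
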